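import Mathlib

/-!
# Chain functions: from texts to all weights (compactness)

Histories are lists, newest letter first.  `TL k G X` is the sum over the marks (nonempty
suffixes `b :: P` of `X`) of `k (b :: P) * G P`.  `RR Cap K xs G`: the marks are put, innermost
first, near the infinite texts `xs`; each time there is a window such that all weights in the
class `K` supported in the window are allowed.
-/

namespace Vale.Agent.P329.H817

variable {α : Type} {A : Type} [CommRing A]

/-- chain operator: sum over the marks `b :: P` of `X` of `h (b :: P) * F P` -/
def TL (h F : List α → A) : List α → A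
  | [] => 0
  | b :: X => TL h F X + h (b :: X) * F X

/-- the first `J` letters (newest first) of `X` are those of the text `x` -/
def Near (x : ℕ → α) (J : ℕ) (X : List α) : Prop := J ≤ X.length ∧ ∀ i < J, X[i]? = some (x i)

/-- marks near the texts `xs`, innermost first; windows before weights -/
def RR (Cap K : (List α → A) → Prop) : List (ℕ → α) → (List α → A) → Prop
  | [], G => Cap G
  | x :: xs, G => ∃ J, ∀ k, K k → (∀ X, k X ≠ 0 → Near x J X) → RR Cap K xs (TL k G)

/-- `φ` depends only on the oldest `r` letters of the histories of length at least `r` -/
def Old (r : ℕ) (φ : List α → A) : Prop := ∀ V Y : List α, Y.length = r → φ (V ++ Y) = φ Y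

/-- chains of weights, outermost weight first -/
def ch : List (List α → A) → List α → A
  | [] => fun _ => 1
  | k :: ks => TL k (ch ks)

theorem TL_add (k F G : List α → A) : TL k (fun X => F X + G X) = fun X => TL k F X + TL k G X := by
  funext X
  induction X with
  | nil => simp [TL]
  | cons b X ih => simp only [TL, ih]; ring

theorem TL_add_left (k l G : List α → A) :
    TL (fun X => k X + l X) G = fun X => TL k G X + TL l G X := by
  funext X
  induction X with
  | nil => simp [TL]
  | cons b X ih => simp only [TL, ih]; ring

theorem TL_zero_left (G : List α → A) : TL (fun _ => 0) G = fun _ => 0 := by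
  funext X
  induction X with
  | nil => simp [TL]
  | cons b X ih => simp only [TL, ih]; ring

theorem TL_sum_left {ι : Type} (s : Finset ι) (k : ι → List α → A) (G : List α → A) :
    TL (fun X => ∑ i ∈ s, k i X) G = fun X => ∑ i ∈ s, TL (k i) G X := by
  classical
  induction s using Finset.induction_on with
  | empty => simp [TL_zero_left]
  | insert i s hi ih =>
    simp only [Finset.sum_insert hi]
    rw [TL_add_left, ih]

theorem Near.mono {x : ℕ → α} {J J' : ℕ} (h : J ≤ J') {X : List α} (hX : Near x J' X) :
    Near x J X := ⟨h.trans hX.1, fun i hi => hX.2 i (lt_of_lt_of_le hi h)⟩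

theorem Near.take {x : ℕ → α} {J : ℕ} {X : List α} (h : X.take J = (List.range J).map x) :
    Near x J X := by
  have hl : J ≤ X.length := by
    have := congrArg List.length h
    simp only [List.length_take, List.length_map, List.length_range] at this
    omega
  refine ⟨hl, fun i hi => ?_⟩
  have h1 : (X.take J)[i]? = ((List.range J).map x)[i]? := by rw [h]
  rw [List.getElem?_take_of_lt hi] at h1
  rw [h1]
  simp [hi]

/-- weights supported on long histories: no contribution of short histories -/
theorem TL_short {k G : List α → A} {r : ℕ} (hk : ∀ X, k X ≠ 0 → r + 1 ≤ X.length) :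
    ∀ X : List α, X.length ≤ r → TL k G X = 0 := by
  intro X
  induction X with
  | nil => intro _; rfl
  | cons b X ih =>
    intro hX
    have h1 : k (b :: X) = 0 := by
      by_contra h
      have := hk _ h
      omega
    have h2 := ih (by simp only [List.length_cons] at hX; omega)
    simp only [TL, h1, h2, zero_mul, add_zero]

theorem TL_old {k G φ : List α → A} {r : ℕ} (hφ : Old r φ)
    (hk : ∀ X, k X ≠ 0 → r + 1 ≤ X.length) :
    TL k (fun X => φ X * G X) = fun X => φ X * TL k G X := by
  funext X
  induction X with
  | nil => simp [TL]
  | cons b X ih =>
    rcases Nat.lt_or_ge X.length r with h | h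
    · rw [TL_short hk (b :: X) (by simp only [List.length_cons]; omega),
        TL_short hk (b :: X) (by simp only [List.length_cons]; omega), mul_zero]
    · have h1 : φ (b :: X) = φ X := by
        have h2 : X = X.take (X.length - r) ++ X.drop (X.length - r) := (List.take_append_drop _ _).symm
        have h3 : (X.drop (X.length - r)).length = r := by
          rw [List.length_drop]; omega
        have h4 := hφ (b :: X.take (X.length - r)) _ h3
        have h5 := hφ (X.take (X.length - r)) _ h3
        rw [List.cons_append, ← h2] at h4
        rw [← h2] at h5
        rw [h4, h5]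
      simp only [TL]
      rw [ih, h1]
      ring

theorem Old.of_short {k G : List α → A} {N : ℕ} (hk : ∀ X, k X ≠ 0 → X.length ≤ N) :
    Old N (TL k G) := by
  intro V Y hY
  induction V with
  | nil => rfl
  | cons b V ih =>
    rw [List.cons_append]
    have h1 : k (b :: (V ++ Y)) = 0 := by
      by_contra h
      have := hk _ h
      simp only [List.length_cons, List.length_append] at this
      omega
    simp only [TL, h1, zero_mul, add_zero, ih]

section main

variable {Cap K : (List α → A) → Prop}

theorem RR.add (hadd : ∀ F G, Cap F → Cap G → Cap fun X => F X + G X) :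
    ∀ (xs : List (ℕ → α)) (F G : List α → A), RR Cap K xs F → RR Cap K xs G →
      RR Cap K xs fun X => F X + G X
  | [], F, G, hF, hG => hadd F G hF hG
  | x :: xs, F, G, ⟨J1, h1⟩, ⟨J2, h2⟩ => by
    refine ⟨max J1 J2, fun k hk hs => ?_⟩
    rw [TL_add]
    exact RR.add hadd xs _ _ (h1 k hk fun X hX => (hs X hX).mono (le_max_left _ _))
      (h2 k hk fun X hX => (hs X hX).mono (le_max_right _ _))

theorem RR.old (hold : ∀ r φ G, Old r φ → Cap G → Cap fun X => φ X * G X) {r : ℕ}
    {φ : List α → A} (hφ : Old r φ) :
    ∀ (xs : List (ℕ → α)) (G : List α → A), RR Cap K xs G → RR Cap K xs fun X => φ X * G X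
  | [], G, hG => hold r φ G hφ hG
  | x :: xs, G, ⟨J, hJ⟩ => by
    refine ⟨max J (r + 1), fun k hk hs => ?_⟩
    rw [TL_old hφ fun X hX => (le_max_right _ _).trans (hs X hX).1]
    exact RR.old hold hφ xs _ (hJ k hk fun X hX => (hs X hX).mono (le_max_left _ _))

theorem RR.sum (hadd : ∀ F G, Cap F → Cap G → Cap fun X => F X + G X)
    {xs : List (ℕ → α)} (h0 : RR Cap K xs fun _ => (0 : A)) {ι : Type} (s : Finset ι)
    (F : ι → List α → A) (hF : ∀ i ∈ s, RR Cap K xs (F i)) :
    RR Cap K xs fun X => ∑ i ∈ s, F i X := by
  classical
  induction s using Finset.induction_on with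
  | empty => simpa using h0
  | insert i s hi ih =>
    simp only [Finset.sum_insert hi]
    exact RR.add hadd xs _ _ (hF i (Finset.mem_insert_self i s))
      (ih fun j hj => hF j (Finset.mem_insert_of_mem hj))

/-- **Compactness step**: if `G` is good for all texts `x` of the next mark then `TL k G` is good
for every weight `k`. -/
theorem RR.step [Finite α] (hadd : ∀ F G, Cap F → Cap G → Cap fun X => F X + G X)
    (hold : ∀ r φ G, Old r φ → Cap G → Cap fun X => φ X * G X)
    (hK : ∀ (k : List α → A) (w : List α), K k →
      K fun X => open Classical in if X.take w.length = w then k X else 0)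
    {xs : List (ℕ → α)} (h1 : RR Cap K xs fun _ => (1 : A)) {G : List α → A}
    (hG : ∀ x, RR Cap K (x :: xs) G) {k : List α → A} (hk : K k) :
    RR Cap K xs (TL k G) := by
  classical
  have := Fintype.ofFinite α
  have hold' : ∀ {r : ℕ} {φ : List α → A}, Old r φ → RR Cap K xs φ := by
    intro r φ hφ
    have := RR.old hold hφ xs _ h1
    simpa using this
  have h0 : RR Cap K xs fun _ => (0 : A) := hold' (r := 0) fun _ _ _ => rfl
  let Gd : List α → Prop := fun w => ∀ k, K k → (∀ X, k X ≠ 0 → X.take w.length = w) →
    RR Cap K xs (TL k G)
  -- one step of the bar induction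
  have hstep : ∀ w, (∀ a, Gd (w ++ [a])) → Gd w := by
    intro w hw k hk hs
    have hsplit : k = fun X => (∑ a : α, if X.take (w ++ [a]).length = w ++ [a] then k X else 0) +
        (if X = w then k X else 0) := by
      funext X
      by_cases hX : k X = 0
      · simp [hX]
      · have h2 := hs X hX
        have h3 : X = w ++ X.drop w.length := by
          conv_lhs => rw [← List.take_append_drop w.length X, h2]
        rcases h4 : X.drop w.length with _ | ⟨b, Y⟩
        · rw [h4, List.append_nil] at h3
          subst h3
          rw [if_pos rfl, Finset.sum_eq_zero, zero_add]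
          intro a _
          rw [if_neg]
          intro h
          have := congrArg List.length h
          simp at this
        · rw [h4] at h3
          rw [Finset.sum_eq_single b]
          · rw [if_pos, if_neg, add_zero]
            · intro h
              rw [h] at h3
              have := congrArg List.length h3
              simp at this
            · rw [h3]
              have : w ++ b :: Y = (w ++ [b]) ++ Y := by simp
              rw [this, List.take_left]
          · intro a _ hab
            rw [if_neg]
            intro h
            apply hab
            have h5 : w ++ b :: Y = (w ++ [b]) ++ Y := by simp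
            rw [h3, h5] at h
            have h6 : (w ++ [a]).length = (w ++ [b]).length := by simp
            rw [h6, List.take_left] at h
            have := List.append_cancel_left h
            simpa using this.symm
          · intro h
            exact absurd (Finset.mem_univ b) h
    rw [hsplit, TL_add_left, TL_sum_left]
    refine RR.add hadd xs _ _ (RR.sum hadd h0 _ _ fun a _ => ?_) ?_
    · refine hw a _ (hK k (w ++ [a]) hk) fun X hX => ?_
      by_contra h
      exact hX (if_neg h)
    · refine hold' (Old.of_short (N := w.length) fun X hX => ?_)
      by_contra h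
      apply hX
      rw [if_neg]
      rintro rfl
      exact h le_rfl
  -- a bad word has a bad extension; follow it
  have hroot : Gd [] := by
    by_contra hbad
    have hext : ∀ w : {w : List α // ¬ Gd w}, ∃ a : α, ¬ Gd (w.1 ++ [a]) := by
      intro w
      by_contra h
      push Not at h
      exact w.2 (hstep w.1 h)
    choose nx hnx using hext
    let W : ℕ → {w : List α // ¬ Gd w} := fun n =>
      Nat.rec ⟨[], hbad⟩ (fun _ w => ⟨w.1 ++ [nx w], hnx w⟩) n
    let x : ℕ → α := fun n => nx (W n)
    have hW : ∀ n, (W n).1 = (List.range n).map x := by
      intro n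
      induction n with
      | zero => rfl
      | succ n ih =>
        rw [List.range_succ, List.map_append, ← ih]
        rfl
    obtain ⟨J, hJ⟩ := hG x
    refine (W J).2 fun k hk hs => hJ k hk fun X hX => Near.take ?_
    have := hs X hX
    rw [hW J, List.length_map, List.length_range] at this
    exact this
  exact hroot k hk fun X _ => by simp

/-- **All chains.** -/
theorem all_chains [Finite α] (hadd : ∀ F G, Cap F → Cap G → Cap fun X => F X + G X)
    (hold : ∀ r φ G, Old r φ → Cap G → Cap fun X => φ X * G X)
    (hone : Cap fun _ => 1)
    (hK : ∀ (k : List α → A) (w : List α), K k →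
      K fun X => open Classical in if X.take w.length = w then k X else 0)
    (core : ∀ k, K k → ∀ xs, RR Cap K xs (TL k fun _ => 1)) :
    ∀ ks : List (List α → A), (∀ k ∈ ks, K k) → ∀ xs, RR Cap K xs (ch ks) := by
  have h1 : ∀ xs, RR Cap K xs fun _ => (1 : A) := by
    intro xs
    cases xs with
    | nil => exact hone
    | cons x xs => exact ⟨0, fun k hk _ => core k hk xs⟩
  intro ks
  induction ks with
  | nil => intro _ xs; exact h1 xs
  | cons k ks ih =>
    intro hks xs
    exact RR.step hadd hold hK (h1 xs) (fun x => ih (fun l hl => hks l (List.mem_cons_of_mem _ hl)) _)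
      (hks k List.mem_cons_self)

/-- **All chains have capacity.** -/
theorem cap_chains [Finite α] (hadd : ∀ F G, Cap F → Cap G → Cap fun X => F X + G X)
    (hold : ∀ r φ G, Old r φ → Cap G → Cap fun X => φ X * G X)
    (hone : Cap fun _ => 1)
    (hK : ∀ (k : List α → A) (w : List α), K k →
      K fun X => open Classical in if X.take w.length = w then k X else 0)
    (core : ∀ k, K k → ∀ xs, RR Cap K xs (TL k fun _ => 1))
    (ks : List (List α → A)) (hks : ∀ k ∈ ks, K k) : Cap (ch ks) :=
  all_chains hadd hold hone hK core ks hks []

end main

end Vale.Agent.P329.H817
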