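import Vale.Agent.P329.H817.Comp
import Vale.Agent.P329.H320.Alg

/-!
# Compactness, the instance: values in `ZMod p`, local weights, level sets of height one
-/

namespace Vale.Agent.P329.H817

open H320 (TW chW LocC Core)

variable {p : ℕ} {α : Type}

theorem TL_eq (k F : List α → ZMod p) : TL k F = TW k F := by
  funext X
  induction X with
  | nil => rfl
  | cons x X ih => rw [TL, TW, ih]

theorem ch_eq (ks : List (List α → ZMod p)) : ch ks = chW ks := by
  induction ks with
  | nil => rfl
  | cons k ks ih => rw [ch, chW, ih, TL_eq]

/-- all level sets of `F` (a function of the history, newest letter first) have height one -/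
def Cp (F : List α → ZMod p) : Prop := Kn fun w : List α => F w.reverse

/-- weights with finite memory -/
def Kl (k : List α → ZMod p) : Prop := ∃ c, LocC c k

theorem kn_take [Finite α] (r : ℕ) :
    Kn fun w : List α => (⟨w.take r, by rw [List.length_take]; omega⟩ :
      {v : List α // v.length ≤ r}) := by
  rintro ⟨v, hv⟩
  rcases Nat.lt_or_ge v.length r with h | h
  · refine Eq.mp (congrArg (SH 1) ?_) (Slow.SH.word v).of_zero
    ext w
    simp only [Set.mem_singleton_iff, Set.mem_ofPred_eq, Subtype.mk.injEq]
    constructor
    · rintro rfl
      exact List.take_of_length_le h.le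
    · intro hw
      rw [← hw]
      rw [← hw, List.length_take] at h
      exact (List.take_of_length_le (by omega)).symm
  · have hr : v.length = r := le_antisymm hv h
    refine Eq.mp (congrArg (SH 1) ?_) ((Slow.SH.word v).of_zero.cat SH.univ)
    ext w
    simp only [Set.mem_ofPred_eq, Subtype.mk.injEq]
    constructor
    · rintro ⟨u, hu, t, -, rfl⟩
      rw [Set.mem_singleton_iff] at hu
      subst hu
      rw [← hr, List.take_left]
    · intro hw
      exact ⟨v, rfl, w.drop r, trivial, by rw [← hw, List.take_append_drop]⟩

theorem kn_old [Finite α] {r : ℕ} {φ : List α → ZMod p} (hφ : Old r φ) : Cp φ := by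
  have : Finite {v : List α // v.length ≤ r} := (List.finite_length_le α r).to_subtype
  have h1 := (kn_take (α := α) r).comp fun v => φ v.1.reverse
  intro a
  refine Eq.mp (congrArg (SH 1) ?_) (h1 a)
  ext w
  change φ (w.take r).reverse = a ↔ φ w.reverse = a
  have h2 : φ w.reverse = φ (w.take r).reverse := by
    rcases Nat.lt_or_ge w.length r with h | h
    · rw [List.take_of_length_le h.le]
    · have h3 : w.reverse = (w.drop r).reverse ++ (w.take r).reverse := by
        rw [← List.reverse_append, List.take_append_drop]
      rw [h3]
      apply hφ
      rw [List.length_reverse, List.length_take]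
      omega
  rw [h2]

/-- **The core from good texts**: if for every weight `k` with finite memory and all infinite texts
`xs` the function `N_k` is good near `xs`, then all iterated sums with weights of finite memory
have level sets of height one. -/
theorem core_of_texts [NeZero p] [Finite α]
    (core : ∀ k : List α → ZMod p, Kl k → ∀ xs, RR Cp Kl xs (TL k fun _ => 1))
    (ks : List (List α → ZMod p)) (hks : ∀ k ∈ ks, Kl k) :
    Kn fun w : List α => chW ks w.reverse := by
  have h := cap_chains (Cap := Cp) (K := Kl (p := p) (α := α))
    (fun F G hF hG => hF.comp₂ hG fun x y => x + y)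
    (fun r φ G hφ hG => (kn_old hφ).comp₂ hG fun x y => x * y)
    (Kn.const 1)
    (fun k w hk => by
      obtain ⟨c, hc⟩ := hk
      refine ⟨max c w.length, fun X Y hXY => ?_⟩
      have h1 : ∀ n ≤ max c w.length, X.take n = Y.take n := by
        intro n hn
        have := congrArg (List.take n) hXY
        rwa [List.take_take, List.take_take, Nat.min_eq_left hn] at this
      beta_reduce
      rw [hc X Y (h1 c (le_max_left _ _)), h1 w.length (le_max_right _ _)])
    core ks hks
  rw [ch_eq] at h
  exact h

theorem core_of_texts' [NeZero p] [Finite α]
    (core : ∀ k : List α → ZMod p, Kl k → ∀ xs, RR Cp Kl xs (TL k fun _ => 1)) (c : ℕ) :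
    Core p α c := fun ks hks => core_of_texts core ks fun k hk => ⟨c, hks k hk⟩

end Vale.Agent.P329.H817
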