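import Mathlib.Order.Filter.Ultrafilter.Basic
import Vale.Agent.P329.H817.Comp

/-!
# Chain functions: from filters to all weights (compactness with ultrafilters)
-/

namespace Vale.Agent.P329.H817

open Filter

variable {α : Type} {A : Type} [CommRing A]

open Classical in
/-- restriction of a weight to a set of histories -/
noncomputable def rs (S : Set (List α)) (k : List α → A) : List α → A :=
  fun X => if X ∈ S then k X else 0

/-- the class `K` is closed under restriction to `S` -/
def Ms (K : (List α → A) → Prop) (S : Set (List α)) : Prop := ∀ k, K k → K (rs S k)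

theorem rs_supp {S : Set (List α)} {k : List α → A} {X : List α} (h : rs S k X ≠ 0) :
    X ∈ S ∧ k X ≠ 0 := by
  unfold rs at h
  split_ifs at h with hX
  · exact ⟨hX, h⟩
  · exact absurd rfl h

theorem rs_add (S : Set (List α)) (k : List α → A) : k = fun X => rs S k X + rs Sᶜ k X := by
  funext X
  unfold rs
  by_cases h : X ∈ S
  · simp [h]
  · simp [h]

/-- marks near the filters `Fs`, innermost first; sets before weights -/
def RU (Cap K : (List α → A) → Prop) : List (Filter (List α)) → (List α → A) → Prop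
  | [], G => Cap G
  | F :: Fs, G => ∃ S ∈ F, Ms K S ∧ ∀ k, K k → (∀ X, k X ≠ 0 → X ∈ S) → RU Cap K Fs (TL k G)

/-- the filter of long histories -/
def lng : Filter (List α) := comap List.length atTop

theorem mem_lng (N : ℕ) : {X : List α | N ≤ X.length} ∈ (lng : Filter (List α)) :=
  preimage_mem_comap (Ici_mem_atTop N)

section main

variable {Cap K : (List α → A) → Prop}

theorem Ms.inter {S T : Set (List α)} (hS : Ms K S) (hT : Ms K T) : Ms K (S ∩ T) := by
  intro k hk
  have := hS _ (hT k hk)
  refine Eq.mp (congrArg K ?_) this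
  funext X
  unfold rs
  by_cases h1 : X ∈ S <;> by_cases h2 : X ∈ T <;> simp [h1, h2]

theorem Ms.compl (hsub : ∀ k l, K k → K l → K fun X => k X - l X) {S : Set (List α)}
    (hS : Ms K S) : Ms K Sᶜ := by
  intro k hk
  have := hsub _ _ hk (hS k hk)
  refine Eq.mp (congrArg K ?_) this
  funext X
  unfold rs
  by_cases h1 : X ∈ S <;> simp [h1]

theorem RU.add (hadd : ∀ F G, Cap F → Cap G → Cap fun X => F X + G X) :
    ∀ (Fs : List (Filter (List α))) (F G : List α → A), RU Cap K Fs F → RU Cap K Fs G →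
      RU Cap K Fs fun X => F X + G X
  | [], F, G, hF, hG => hadd F G hF hG
  | U :: Fs, F, G, ⟨S1, m1, c1, h1⟩, ⟨S2, m2, c2, h2⟩ => by
    refine ⟨S1 ∩ S2, inter_mem m1 m2, c1.inter c2, fun k hk hs => ?_⟩
    rw [TL_add]
    exact RU.add hadd Fs _ _ (h1 k hk fun X hX => (hs X hX).1)
      (h2 k hk fun X hX => (hs X hX).2)

theorem RU.old (hold : ∀ r φ G, Old r φ → Cap G → Cap fun X => φ X * G X)
    (hlen : ∀ N, Ms K {X : List α | N ≤ X.length}) {r : ℕ} {φ : List α → A} (hφ : Old r φ) :
    ∀ (Fs : List (Filter (List α))) (_ : ∀ F ∈ Fs, F ≤ lng) (G : List α → A), RU Cap K Fs G →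
      RU Cap K Fs fun X => φ X * G X
  | [], _, G, hG => hold r φ G hφ hG
  | F :: Fs, hF, G, ⟨S, m, c, h⟩ => by
    refine ⟨S ∩ {X | r + 1 ≤ X.length}, inter_mem m (hF F List.mem_cons_self (mem_lng _)),
      c.inter (hlen _), fun k hk hs => ?_⟩
    rw [TL_old hφ fun X hX => (hs X hX).2]
    exact RU.old hold hlen hφ Fs (fun F' hF' => hF F' (List.mem_cons_of_mem _ hF')) _
      (h k hk fun X hX => (hs X hX).1)

/-- **Compactness step** -/
theorem RU.step (hadd : ∀ F G, Cap F → Cap G → Cap fun X => F X + G X)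
    (hold : ∀ r φ G, Old r φ → Cap G → Cap fun X => φ X * G X)
    (hlen : ∀ N, Ms K {X : List α | N ≤ X.length})
    (hsub : ∀ k l, K k → K l → K fun X => k X - l X)
    {Fs : List (Filter (List α))} (hFs : ∀ F ∈ Fs, F ≤ lng) (h1 : RU Cap K Fs fun _ => (1 : A))
    {G : List α → A} (hG : ∀ U : Ultrafilter (List α), (U : Filter (List α)) ≤ lng →
      RU Cap K (U :: Fs) G) {k : List α → A} (hk : K k) : RU Cap K Fs (TL k G) := by
  classical
  have hold' : ∀ {r : ℕ} {φ : List α → A}, Old r φ → RU Cap K Fs φ := by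
    intro r φ hφ
    have := RU.old hold hlen hφ Fs hFs _ h1
    simpa using this
  -- good sets
  let Gd : Set (List α) → Prop := fun S => Ms K S ∧ ∀ k, K k → (∀ X, k X ≠ 0 → X ∈ S) →
    RU Cap K Fs (TL k G)
  have hshort : ∀ N, Gd {X : List α | N ≤ X.length}ᶜ := by
    intro N
    refine ⟨(hlen N).compl hsub, fun k _ hs => hold' (Old.of_short (N := N) fun X hX => ?_)⟩
    have := hs X hX
    simp only [Set.mem_compl_iff, Set.mem_ofPred_eq, not_le] at this
    omega
  have hunion : ∀ S T, Gd S → Gd T → Gd (S ∪ T) := by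
    intro S T hS hT
    refine ⟨?_, fun k hk hs => ?_⟩
    · have h := ((hS.1.compl hsub).inter (hT.1.compl hsub)).compl hsub
      rwa [← Set.compl_union, compl_compl] at h
    · have e := rs_add S k
      rw [e, TL_add_left]
      refine RU.add hadd Fs _ _ (hS.2 _ (hS.1 k hk) fun X hX => (rs_supp hX).1)
        (hT.2 _ (hS.1.compl hsub k hk) fun X hX => ?_)
      rcases hs X (rs_supp hX).2 with h | h
      · exact absurd h (rs_supp hX).1
      · exact h
  by_contra hcon
  have huniv : ¬ Gd Set.univ := fun h => hcon (h.2 k hk fun X _ => trivial)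
  -- the filter generated by the complements of the good sets
  let F : Filter (List α) :=
    { sets := {S | ∃ T, Gd T ∧ Tᶜ ⊆ S}
      univ_sets := ⟨_, hshort 0, Set.subset_univ _⟩
      sets_of_superset := by
        rintro S S' ⟨T, hT, h⟩ h'
        exact ⟨T, hT, h.trans h'⟩
      inter_sets := by
        rintro S S' ⟨T, hT, h⟩ ⟨T', hT', h'⟩
        refine ⟨T ∪ T', hunion _ _ hT hT', fun X hX => ?_⟩
        rw [Set.compl_union] at hX
        exact ⟨h hX.1, h' hX.2⟩ }
  have hne : F.NeBot := by
    rw [Filter.neBot_iff]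
    intro hbot
    have h0 : (∅ : Set (List α)) ∈ F := by rw [hbot]; trivial
    obtain ⟨T, hT, hTe⟩ := h0
    have : T = Set.univ := by
      rw [← Set.compl_empty_iff]
      exact Set.subset_empty_iff.1 hTe
    exact huniv (this ▸ hT)
  obtain ⟨U, hU⟩ := Ultrafilter.exists_le F
  have hUl : (U : Filter (List α)) ≤ lng := by
    refine hU.trans ?_
    rw [lng, ← tendsto_iff_comap, tendsto_atTop]
    intro N
    exact ⟨_, hshort N, by rw [compl_compl]⟩
  obtain ⟨S, hS, hSM, hSk⟩ := hG U hUl
  have h2 : Sᶜ ∈ (U : Filter (List α)) := hU ⟨S, ⟨hSM, hSk⟩, subset_rfl⟩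
  have h3 := inter_mem hS h2
  rw [Set.inter_compl_self] at h3
  exact U.neBot.ne (empty_mem_iff_bot.1 h3)

/-- **All chains.** -/
theorem all_chainsU (hadd : ∀ F G, Cap F → Cap G → Cap fun X => F X + G X)
    (hold : ∀ r φ G, Old r φ → Cap G → Cap fun X => φ X * G X)
    (hone : Cap fun _ => 1)
    (hlen : ∀ N, Ms K {X : List α | N ≤ X.length})
    (hsub : ∀ k l, K k → K l → K fun X => k X - l X)
    (core : ∀ k, K k → ∀ Us : List (Ultrafilter (List α)),
      (∀ U ∈ Us, (U : Filter (List α)) ≤ lng) →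
      RU Cap K (Us.map Ultrafilter.toFilter) (TL k fun _ => 1)) :
    ∀ ks : List (List α → A), (∀ k ∈ ks, K k) → ∀ Us : List (Ultrafilter (List α)),
      (∀ U ∈ Us, (U : Filter (List α)) ≤ lng) →
      RU Cap K (Us.map Ultrafilter.toFilter) (ch ks) := by
  have h1 : ∀ Us : List (Ultrafilter (List α)), (∀ U ∈ Us, (U : Filter (List α)) ≤ lng) →
      RU Cap K (Us.map Ultrafilter.toFilter) fun _ => (1 : A) := by
    intro Us hUs
    cases Us with
    | nil => exact hone
    | cons U Us =>
      exact ⟨Set.univ, univ_mem, fun k hk => by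
        refine Eq.mp (congrArg K ?_) hk
        funext X; simp [rs], fun k hk _ => core k hk Us fun U' hU' =>
          hUs U' (List.mem_cons_of_mem _ hU')⟩
  intro ks
  induction ks with
  | nil => intro _ Us hUs; exact h1 Us hUs
  | cons k ks ih =>
    intro hks Us hUs
    refine RU.step hadd hold hlen hsub ?_ (h1 Us hUs) (fun U hU => ?_)
      (hks k List.mem_cons_self)
    · intro F hF
      obtain ⟨V, hV, hVF⟩ := List.mem_map.1 hF
      rw [← hVF]
      exact hUs V hV
    · exact ih (fun l hl => hks l (List.mem_cons_of_mem _ hl)) (U :: Us) fun U' hU' => by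
        rcases List.mem_cons.1 hU' with rfl | h
        · exact hU
        · exact hUs U' h

/-- **All chains have capacity.** -/
theorem cap_chainsU (hadd : ∀ F G, Cap F → Cap G → Cap fun X => F X + G X)
    (hold : ∀ r φ G, Old r φ → Cap G → Cap fun X => φ X * G X)
    (hone : Cap fun _ => 1)
    (hlen : ∀ N, Ms K {X : List α | N ≤ X.length})
    (hsub : ∀ k l, K k → K l → K fun X => k X - l X)
    (core : ∀ k, K k → ∀ Us : List (Ultrafilter (List α)),
      (∀ U ∈ Us, (U : Filter (List α)) ≤ lng) →
      RU Cap K (Us.map Ultrafilter.toFilter) (TL k fun _ => 1))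
    (ks : List (List α → A)) (hks : ∀ k ∈ ks, K k) : Cap (ch ks) :=
  all_chainsU hadd hold hone hlen hsub core ks hks [] (by simp)

end main

end Vale.Agent.P329.H817
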