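import Vale.Agent.P329.H817.CompInst
import Vale.Agent.P329.H320.OfK

/-!
# Row K: from the core to all chains over the letters

The base stage `w0` cuts after every letter; the zones are the filters of the windows of the
infinite texts.
-/

namespace Vale.Agent.P329.H817

open Vale.Agent.P329


variable {p : ℕ} {α : Type}

theorem TL_eq' (k F : List α → ZMod p) : H962.TL k F = TL k F := by
  funext X
  induction X with
  | nil => rfl
  | cons x X ih => rw [H962.TL, TL, ih]

/-- the filter of the windows of a text -/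
def TF (x : ℕ → α) : Filter (List α) where
  sets := {U | ∃ J, ∀ X, Near x J X → X ∈ U}
  univ_sets := ⟨0, fun _ _ => trivial⟩
  sets_of_superset := fun ⟨J, h⟩ hs => ⟨J, fun X hX => hs (h X hX)⟩
  inter_sets := fun ⟨J, h⟩ ⟨J', h'⟩ => ⟨max J J', fun X hX =>
    ⟨h X (hX.mono (le_max_left _ _)), h' X (hX.mono (le_max_right _ _))⟩⟩

theorem mem_TF {x : ℕ → α} {U : Set (List α)} : U ∈ TF x ↔ ∃ J, ∀ X, Near x J X → X ∈ U :=
  Iff.rfl

theorem near_range (x : ℕ → α) (J : ℕ) : Near x J ((List.range J).map x) := by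
  refine ⟨by simp, fun i hi => ?_⟩
  simp [hi]

instance TF_neBot (x : ℕ → α) : (TF x).NeBot := by
  rw [Filter.neBot_iff]
  intro h
  have h1 : (∅ : Set (List α)) ∈ TF x := by rw [h]; exact Filter.mem_bot
  obtain ⟨J, hJ⟩ := h1
  exact hJ _ (near_range x J)

theorem near_iff {x : ℕ → α} {J : ℕ} {X : List α} :
    H962.Near (fun X : List α => X.head?) (fun i => some (x i)) J X ↔ Near x J X := by
  unfold H962.Near Near
  simp only [List.head?_drop]

theorem lc_of_kl [Finite α] (hC : H962.RowC) {w k : List α → ZMod p} (hk : Kl k) :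
    H962.Lc w k := by
  obtain ⟨c, hc⟩ := hk
  have h1 := (hC α p w).1 _ _ k _ ((hC α p w).2.2.2.2.2.1 c)
  have h2 : (fun X : List α => k (X.take c)) = k := by
    funext X
    exact hc _ _ (by rw [List.take_take, Nat.min_self])
  rwa [h2] at h1

theorem rr_of [Finite α] (hC : H962.RowC) {w : List α → ZMod p} :
    ∀ (xs : List (ℕ → α)) (G : List α → ZMod p), H962.RR w (xs.map TF) G → RR Cp Kl xs G
  | [], G, h => h
  | x :: xs, G, h => by
    obtain ⟨U, ⟨J, hJ⟩, h⟩ := h
    refine ⟨J, fun k hk hs => ?_⟩
    have h1 := h k (lc_of_kl hC hk) fun X hX => hJ X (hs X hX)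
    rw [TL_eq'] at h1
    exact rr_of hC xs _ h1

theorem core_of_rowJ (hC : H962.RowC) (hF1 : H962.RowF1) (hF6 : H962.RowF6) (hJ : H962.RowJ)
    [Fact p.Prime] [Finite α] (k : List α → ZMod p) (hk : Kl k) (xs : List (ℕ → α)) :
    RR Cp Kl xs (TL k fun _ => 1) := by
  classical
  obtain ⟨hS, hcov⟩ := hF6 α p
  -- the zone of a text
  have hz : ∀ x : ℕ → α, ∃ M : Set (ℕ → Option α),
      H962.Zn (H962.w0 : List α → ZMod p) (fun X : List α => X.head?) (TF x) M := by
    intro x
    obtain ⟨M, hM, hMz, -⟩ := hF1 Unit (Option α) (fun _ => ()) (fun i => some (x i)) Set.univ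
      ⟨⟨fun _ => (), trivial⟩, fun _ _ => trivial, fun _ _ => trivial, fun _ _ _ _ _ => ⟨0, fun _ _ => rfl⟩⟩
      (fun _ _ _ => ⟨0, fun _ _ => rfl⟩)
    refine ⟨M, inferInstance, hM, ⟨fun i => some (x i), fun J => ?_, hMz⟩, fun ρs => ?_⟩
    · exact mem_TF.2 ⟨J, fun X hX => near_iff.2 hX⟩
    · obtain ⟨J, hJ⟩ := hcov ρs
      exact ⟨J, fun m _ X hX => hJ X hX.1⟩
  choose M hM using hz
  have hsys : H962.Sys (H962.w0 : List α → ZMod p) (fun X : List α => X.head?)
      (fun b => if b = none then 0 else 1) (fun b => b) := by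
    refine ⟨fun X => ?_, fun X => rfl, ?_⟩
    · cases X <;> simp [H962.w0]
    · have h1 := (hC α p (H962.w0 : List α → ZMod p)).1 _ _ (fun X : List α => X.head?) _
        ((hC α p (H962.w0 : List α → ZMod p)).2.2.2.2.2.1 1)
      have h2 : (fun X : List α => (X.take 1).head?) = fun X : List α => X.head? := by
        funext X
        cases X <;> rfl
      rwa [h2] at h1
  let g : List α → ZMod p := fun X => if X = [] then 0 else k X
  have hg : Kl g := by
    obtain ⟨c, hc⟩ := hk
    refine ⟨c + 1, fun X Y hXY => ?_⟩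
    have h1 : X.take c = Y.take c := by
      have := congrArg (List.take c) hXY
      rwa [List.take_take, List.take_take, Nat.min_eq_left (Nat.le_succ c)] at this
    have h2 : X = [] ↔ Y = [] := by
      cases X <;> cases Y <;> simp_all
    change (if X = [] then 0 else k X) = if Y = [] then 0 else k Y
    rw [hc X Y h1]
    by_cases h : Y = []
    · rw [if_pos h, if_pos (h2.2 h)]
    · rw [if_neg h, if_neg (fun h' => h (h2.1 h'))]
  have h1 := hJ α (Option α) p (H962.w0 : List α → ZMod p) (fun X : List α => X.head?)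
    (fun b => if b = none then 0 else 1) (fun b => b) hS hsys (xs.map fun x => (TF x, M x))
    (by
      intro Z hZ
      obtain ⟨x, -, rfl⟩ := List.mem_map.1 hZ
      exact hM x)
    g (lc_of_kl hC hg) (by
      intro X hX
      have h2 : X ≠ [] := by
        rintro rfl
        exact hX (if_pos rfl)
      cases X with
      | nil => exact absurd rfl h2
      | cons a X => simp [H962.w0])
  have h2 : (List.map Prod.fst (xs.map fun x => (TF x, M x))) = xs.map TF := by
    rw [List.map_map]; rfl
  rw [h2] at h1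
  have h3 : H962.N g = TL k fun _ => 1 := by
    funext X
    induction X with
    | nil => rfl
    | cons a X ih =>
      rw [H962.N, TL, ih, mul_one]
      congr 1
  rw [h3] at h1
  exact rr_of hC xs _ h1

/-- **Row K.** -/
theorem rowK (hC : H962.RowC) (hF1 : H962.RowF1) (hF6 : H962.RowF6) (hJ : H962.RowJ) :
    H962.RowK := by
  intro α _ p _ k0 ks h0 hks
  have h1 := core_of_texts (p := p) (α := α) (core_of_rowJ hC hF1 hF6 hJ) (ks.reverse ++ [k0])
    (by
      intro k hk
      rw [List.mem_append, List.mem_reverse, List.mem_singleton] at hk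
      rcases hk with hk | rfl
      · exact hks k hk
      · exact h0)
  rw [H320.chW_concat, List.reverse_reverse] at h1
  exact h1

end Vale.Agent.P329.H817
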